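import Mathlib

/-!
# P183: the seven element lattice `H7` (a hexagon with a midpoint)
-/

namespace Vale.Agent.Lib.P183.HX

/-- the seven element lattice `H7`: three maximal chains `bot < a1 < a2 < top`,
`bot < b1 < b2 < top`, `bot < c < top` -/
inductive H7 : Type
  | bot | a1 | a2 | b1 | b2 | c | top
  deriving DecidableEq

/-- the order of `H7`: `bot` least, `top` greatest, `a1 < a2`, `b1 < b2`, nothing else -/
def H7.le : H7 → H7 → Bool
  | .bot, _ => true
  | _, .top => true
  | .a1, .a1 => true
  | .a1, .a2 => true
  | .a2, .a2 => true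
  | .b1, .b1 => true
  | .b1, .b2 => true
  | .b2, .b2 => true
  | .c, .c => true
  | _, _ => false

instance : LE H7 := ⟨fun x y => H7.le x y = true⟩

end Vale.Agent.Lib.P183.HX
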