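import Vale.Agent.Lib.P183.HX.Check

namespace Vale.Agent.Lib.P183.HX

theorem run_ord : allLt 1980 chkOrd = true := by decide +kernel
theorem run_rep : allLt 74 chkRep = true := by decide +kernel
theorem run_x : allLt 1980 chkX = true := by decide +kernel

end Vale.Agent.Lib.P183.HX
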