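import Vale.Agent.Lib.P183.HX.Sound1

/-!
# P183 (hexagon with a midpoint): soundness of the checker, part 2 (the seven congruences)
-/

namespace Vale.Agent.Lib.P183.HX

open Vale.Agent.Lib.P183 Vale.Agent.Lib.P183.BK

theorem chkX_spec (x : XX) :
    hm (code x) = repN (orbN (code x)) ∧ orbN (code x) < 74 ∧
    keyN (labL (orbN (code x))) (code x) = keyN (labL (orbN (code x))) 0 ∧
    (∀ l, keyN l (code x) = keyN l 0 → H7.le (labL (orbN (code x))) l = true) ∧
    (∀ k < 3, ∀ l, keyN l (stepN k (code x)) = indN l k (keyN l (code x))) ∧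
    keyN .a2 (code x) = lk UPA 7 (keyN .a1 (code x)) ∧
    keyN .b2 (code x) = lk UPB 7 (keyN .b1 (code x)) := by
  have h := (allLt_iff _ _).1 run_x x.val x.isLt
  simp only [chkX, Bool.and_eq_true, beq_iff_eq, decide_eq_true_eq, allL_iff, allLt_iff,
    Bool.or_eq_true, Bool.not_eq_true', beq_eq_false_iff_ne] at h
  obtain ⟨⟨⟨⟨⟨⟨h1, h2⟩, h3⟩, h4⟩, h5⟩, h6⟩, h7⟩ := h
  refine ⟨h1, h2, h3, fun l hl => ?_, h5, h6, h7⟩
  rcases h4 l with h | h
  · exact absurd hl h
  · exact h

theorem rep_spec (o : ℕ) (ho : o < 74) :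
    evW 20 (wrd o) 0 = repN o ∧
    evD (wrd o) 1 24 (lk DFW 24 o) 0 = zN (labL o) ∧
    (labL o = .top ∨ evD (wz (labL o)) 1 24 (lk DBW 24 o) 0 = repN o) := by
  have h := (allLt_iff _ _).1 run_rep o ho
  simp only [chkRep, Bool.and_eq_true, beq_iff_eq, Bool.or_eq_true] at h
  exact ⟨h.1.1, h.1.2, h.2⟩

/-! ### the order of `H7` -/

instance : DecidableRel (α := H7) (· ≤ ·) := fun x y => inferInstanceAs (Decidable (H7.le x y = true))

instance : PartialOrder H7 where
  le_refl := by intro x; cases x <;> decide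
  le_trans := by intro x y z; cases x <;> cases y <;> cases z <;> decide
  le_antisymm := by intro x y; cases x <;> cases y <;> decide

instance : SemilatticeSup H7 where
  sup := H7.sup
  le_sup_left := by intro x y; cases x <;> cases y <;> decide
  le_sup_right := by intro x y; cases x <;> cases y <;> decide
  sup_le := by intro x y z; cases x <;> cases y <;> cases z <;> decide

instance : OrderBot H7 where
  bot := .bot
  bot_le := by intro x; cases x <;> decide

theorem H7_le_iff (x y : H7) : x ≤ y ↔ H7.le x y = true := Iff.rfl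

/-! ### small facts -/

theorem m_a : stepN 0 0 = 0 := by decide +kernel
theorem m_b : stepN 1 0 = 0 := by decide +kernel
theorem m_one : evW 20 1 0 = 0 := by decide +kernel
theorem m_top : stepN 2 0 = zN .top := by decide +kernel

theorem m_z (x : H7) : evW 20 (wz x) 0 = zN x ∧ keyN x (zN x) = keyN x 0 ∧ zN x < 1980 := by
  cases x <;> decide +kernel

theorem m_sep (x y : H7) : H7.le x y = true ∨ keyN y (zN x) ≠ keyN y 0 := by
  cases x <;> cases y <;> decide +kernel

theorem m_join (x y : H7) : H7.le x y = true ∨ H7.le y x = true ∨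
    evD (wz x) (wz y) 24 (joinD x y) 0 = zN (H7.sup x y) ∨
    evD (wz y) (wz x) 24 (joinD y x) 0 = zN (H7.sup x y) := by
  cases x <;> cases y <;> decide +kernel

theorem m_chain (x y : H7) : H7.le y x = true → x ≠ .top → y ≠ .bot → x ≠ y →
    evD (wz x) 1 24 (chainD x y) 0 = zN y := by
  cases x <;> cases y <;> decide +kernel

/-! ### the seven congruences -/

def key (l : H7) (x : XX) : ℕ := keyN l (code x)

theorem key_op (l : H7) (k : Fin 3) (x : XX) : key l (op k x) = indN l k.val (key l x) := by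
  unfold key
  rw [code_op]
  exact (chkX_spec x).2.2.2.2.1 k.val k.isLt l

def Th (l : H7) : CC :=
  ⟨Setoid.ker (key l), fun i a b h => by
    have h' : key l a = key l b := h
    show key l (op i a) = key l (op i b)
    rw [key_op, key_op, h']⟩

theorem Th_iff (l : H7) (a b : XX) : (Th l).1 a b ↔ key l a = key l b := Iff.rfl

theorem key_mono {l l' : H7} (h : H7.le l l' = true) {a b : XX}
    (e : key l a = key l b) : key l' a = key l' b := by
  have ha := (chkX_spec a).2.2.2.2.2
  have hb := (chkX_spec b).2.2.2.2.2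
  unfold key at e ⊢
  cases l <;> cases l' <;>
    first
    | exact absurd h (by decide)
    | rfl
    | exact e
    | (have e' : code a = code b := e
       rw [e'])
    | (rw [ha.1, hb.1, e])
    | (rw [ha.2, hb.2, e])

/-- the base points of the generators -/
def zX (l : H7) : XX := ⟨zN l, (m_z l).2.2⟩

theorem code_zX (l : H7) : code (zX l) = zN l := rfl

theorem Th_zX (l : H7) : (Th l).1 x0 (zX l) := by
  rw [Th_iff]
  exact (m_z l).2.1.symm

/-! ### derivations -/

theorem Ka (θ : CC) : Real (KS sg x0 θ) (stepN 0) :=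
  real_K_of_src θ (real_step 0) (y := x0) (by rw [m_a]; rfl) (θ.1.refl' x0)

theorem Kb (θ : CC) : Real (KS sg x0 θ) (stepN 1) :=
  real_K_of_src θ (real_step 1) (y := x0) (by rw [m_b]; rfl) (θ.1.refl' x0)

theorem Kw (θ : CC) (w : ℕ) {y : XX} (hy : code y = evW 20 w 0) (h : θ.1 x0 y) :
    Real (KS sg x0 θ) (evW 20 w) :=
  real_K_of_src θ (real_evW real_step 20 w) hy h

theorem der2 (θ : CC) (w1 w2 n D : ℕ) {y1 y2 y : XX} (e1 : code y1 = evW 20 w1 0)
    (e2 : code y2 = evW 20 w2 0) (h1 : θ.1 x0 y1) (h2 : θ.1 x0 y2)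
    (e : code y = evD w1 w2 n D 0) : θ.1 x0 y :=
  of_real_K θ (real_evD (Ka θ) (Kb θ) (Kw θ w1 e1 h1) (Kw θ w2 e2 h2) n D) e

theorem der1 (θ : CC) (w n D : ℕ) {y1 y : XX} (e1 : code y1 = evW 20 w 0)
    (h1 : θ.1 x0 y1) (e : code y = evD w 1 n D 0) : θ.1 x0 y :=
  der2 θ w 1 n D e1 (y2 := x0) (by rw [m_one]; rfl) h1 (θ.1.refl' x0) e

theorem hm_real {S : Subgroup (Equiv.Perm XX)} (h0 : Real S (stepN 0)) (h1 : Real S (stepN 1))
    (x : XX) : ∃ h ∈ S, code (h x) = repN (orbN (code x)) := by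
  obtain ⟨h, hh, hc⟩ := real_evD h0 h1 (real_one S) (real_one S) 12 (orbE (code x) / 128)
  refine ⟨h, hh, ?_⟩
  rw [hc, ← (chkX_spec x).1]
  rfl

theorem to_rep (θ : CC) (x : XX) :
    ∃ r : XX, code r = repN (orbN (code x)) ∧ (θ.1 x0 x ↔ θ.1 x0 r) := by
  obtain ⟨h, hh, hc⟩ := hm_real (Ka θ) (Kb θ) x
  exact ⟨h x, hc, (KS_move_iff sg hh).symm⟩

theorem htr (x : XX) : ∃ g ∈ GG, g x0 = x := by
  obtain ⟨h, hh, hc⟩ := hm_real (real_step 0) (real_step 1) x
  obtain ⟨g, hg, hgc⟩ := real_evW real_step 20 (wrd (orbN (code x)))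
  refine ⟨h⁻¹ * g, mul_mem (inv_mem hh) hg, ?_⟩
  have e : g x0 = h x := code_inj (by
    rw [hgc, hc, code_x0, (rep_spec _ (chkX_spec x).2.1).1])
  rw [Equiv.Perm.mul_apply, e]
  simp

def lab (x : XX) : H7 := labL (orbN (code x))

theorem H2a (θ : CC) (x : XX) (h : θ.1 x0 x) : θ.1 x0 (zX (lab x)) := by
  obtain ⟨r, hr, hiff⟩ := to_rep θ x
  obtain ⟨e1, e2, -⟩ := rep_spec _ (chkX_spec x).2.1
  exact der1 θ (wrd (orbN (code x))) 24 (lk DFW 24 (orbN (code x))) (y1 := r) (by rw [hr, e1])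
    (hiff.1 h) (by rw [code_zX, e2]; rfl)

theorem chain (θ : CC) {l l' : H7} (hl : l ≠ .top) (hle : H7.le l' l = true)
    (h : θ.1 x0 (zX l)) : θ.1 x0 (zX l') := by
  by_cases h1 : l = l'
  · rw [← h1]; exact h
  by_cases h2 : l' = .bot
  · rw [h2]; exact θ.1.refl' x0
  exact der1 θ (wz l) 24 (chainD l l') (y1 := zX l) (by rw [code_zX, (m_z l).1]) h
    (by rw [code_zX, m_chain l l' hle hl h2 h1])

theorem gen_top (θ : CC) (h : θ.1 x0 (zX .top)) (y : XX) : θ.1 x0 y := by
  have hle : GG ≤ KS sg x0 θ := by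
    rw [Subgroup.closure_le]
    rintro _ ⟨k, rfl⟩
    refine ⟨Subgroup.subset_closure ⟨k, rfl⟩, ?_⟩
    match k with
    | ⟨0, _⟩ =>
      have e : sg ⟨0, by norm_num⟩ x0 = x0 := code_inj (by
        rw [sg_apply, code_op, code_x0]; exact m_a)
      exact e.symm ▸ θ.1.refl' x0
    | ⟨1, _⟩ =>
      have e : sg ⟨1, by norm_num⟩ x0 = x0 := code_inj (by
        rw [sg_apply, code_op, code_x0]; exact m_b)
      exact e.symm ▸ θ.1.refl' x0
    | ⟨2, _⟩ =>
      have e : sg ⟨2, by norm_num⟩ x0 = zX .top := code_inj (by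
        rw [sg_apply, code_op, code_x0, code_zX]; exact m_top)
      rw [e]; exact h
  obtain ⟨g, hg, rfl⟩ := htr y
  exact (hle hg).2

theorem gen (θ : CC) (l : H7) (h : θ.1 x0 (zX l)) : Th l ≤ θ := by
  refine le_of_block sg x0 htr _ _ (fun y hy => ?_)
  by_cases hl : l = .top
  · subst hl; exact gen_top θ h y
  rw [Th_iff] at hy
  have hle : H7.le (lab y) l = true := (chkX_spec y).2.2.2.1 l hy.symm
  have hz : θ.1 x0 (zX (lab y)) := chain θ hl hle h
  obtain ⟨r, hr, hiff⟩ := to_rep θ y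
  obtain ⟨-, -, e3⟩ := rep_spec _ (chkX_spec y).2.1
  have hne : labL (orbN (code y)) ≠ .top := by
    intro ht
    have : H7.le .top l = true := by
      have h' := hle
      unfold lab at h'
      rwa [ht] at h'
    revert this hl
    cases l <;> decide
  have e3' := e3.resolve_left hne
  refine hiff.2 (der1 θ (wz (lab y)) 24 (lk DBW 24 (orbN (code y))) (y1 := zX (lab y))
    (by rw [code_zX, (m_z _).1]) hz (by rw [hr]; exact e3'.symm))

theorem main_iso : Nonempty (H7 ≃o CC) := by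
  refine classify sg x0 Th lab htr ?_ ?_ ?_ ?_ ?_
  · intro θ a b hab
    have : a = b := code_inj hab
    exact this ▸ θ.1.refl' a
  · intro x
    rw [Th_iff]
    exact (chkX_spec x).2.2.1.symm
  · intro x θ h
    exact gen θ _ (H2a θ x h)
  · intro u u' θ h1 h2
    have z1 : θ.1 x0 (zX u) := h1 (Th_zX u)
    have z2 : θ.1 x0 (zX u') := h2 (Th_zX u')
    rcases m_join u u' with h | h | h | h
    · have : u ⊔ u' = u' := sup_eq_right.2 h
      rw [this]; exact h2
    · have : u ⊔ u' = u := sup_eq_left.2 h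
      rw [this]; exact h1
    · exact gen θ _ (der2 θ (wz u) (wz u') 24 (joinD u u') (y1 := zX u) (y2 := zX u')
        (by rw [code_zX, (m_z _).1]) (by rw [code_zX, (m_z _).1]) z1 z2
        (by rw [code_zX]; exact h.symm))
    · exact gen θ _ (der2 θ (wz u') (wz u) 24 (joinD u' u) (y1 := zX u') (y2 := zX u)
        (by rw [code_zX, (m_z _).1]) (by rw [code_zX, (m_z _).1]) z2 z1
        (by rw [code_zX]; exact h.symm))
  · intro u u'
    constructor
    · intro h
      rcases m_sep u u' with h' | h'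
      · exact h'
      · exact absurd ((Th_iff _ _ _).1 (h (Th_zX u))).symm h'
    · intro h a b hab
      exact key_mono h hab

end Vale.Agent.Lib.P183.HX
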